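import Vale.Agent.P176.Main

/-!
# The finitistic dimension conjecture is false

For every field `k` of characteristic zero there is a finite-dimensional `k`-algebra with
finitely generated modules of arbitrarily large finite projective dimension.
-/

namespace Vale.Agent.Results.P176.FindimInfinite

open CategoryTheory

/-- Over every field `k` of characteristic zero there is a finite-dimensional algebra `A` such that
for every `n` there is a finitely generated `A`-module `M` with `n ≤ pd M < ∞`. -/
theorem result (k : Type) [Field k] [CharZero k] :
    ∃ (A : Type) (_ : Ring A) (_ : Algebra k A), Module.Finite k A ∧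
      ∀ n : ℕ, ∃ M : ModuleCat.{0} A, Module.Finite A M ∧
        (n : WithBot ℕ∞) ≤ projectiveDimension M ∧ projectiveDimension M ≠ ⊤ := by
  refine ⟨P176.Alg k, inferInstance, inferInstance, P176.alg_finite k, fun n => ?_⟩
  exact P176.main_findim k n

end Vale.Agent.Results.P176.FindimInfinite
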