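import Vale.Agent.P176.Main
import Vale.Agent.P176H.Lit

/-!
# P176: the finitistic dimension conjecture is false (literal form)

For every field `k` of characteristic zero there is a finite-dimensional `k`-algebra whose little
finitistic dimension is infinite.
-/

namespace Vale.Agent.Results.P176.FindimLiteral

theorem result (k : Type) [Field k] [CharZero k] :
    ∃ (A : Type) (_ : Ring A) (_ : Algebra k A),
      Module.Finite k A ∧ P176H.littleFindim A = ⊤ :=
  ⟨P176.Alg k, inferInstance, inferInstance, P176.alg_finite k,
    P176H.littleFindim_eq_top _ fun n => P176.main_findim k n⟩

end Vale.Agent.Results.P176.FindimLiteral
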